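import Mathlib
import Vale.Agent.P333.R2.H417.Data

/-!
P333: the bulk bound for the factor `107 / 106`.
-/

namespace Vale.Agent.P333.R2.H417

/-- The kernel evaluates the checker on the partition. -/
theorem chk_tree : tree.chk 107 106 512 1024 2 1022 0 1024 = true := by decide +kernel

/-- The bulk bound, densities between `1/512` and `511/512`. -/
theorem bulkBound : Ref.BulkBound 107 106 (1 / 512) :=
  bulk_of (by norm_num) tree chk_tree (by norm_num) (by norm_num) (by norm_num)

end Vale.Agent.P333.R2.H417
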