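import Mathlib
import Vale.Agent.P333.R2.H712.RefDefs

/-!
P333: weighted sums over cyclic words, bounded by a transfer operator.
-/

namespace Vale.Agent.P333.R2.H417

open Vale.Agent.P333 Finset

/-- The weight of a word read by an automaton which remembers (a function of) the last letter. -/
theorem wtA_eq_prod {S A : Type*} (e : A → S) (h : S → A → ℝ) (n : ℕ) (q : S)
    (a : Fin (n + 1) → A) :
    wtA (fun _ x => e x) h (n + 1) q a
      = h q (a 0) * ∏ i : Fin n, h (e (a i.castSucc)) (a i.succ) := by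
  induction n generalizing q with
  | zero => simp [wtA]
  | succ n ih =>
    rw [wtA_succ, ih, Fin.prod_univ_succ]
    rfl

/-- Cyclic products. -/
theorem prod_rotate (n : ℕ) (G : Fin (n + 1) → Fin (n + 1) → ℝ) :
    ∏ p, G p (finRotate (n + 1) p) = (∏ i : Fin n, G i.castSucc i.succ) * G (Fin.last n) 0 := by
  rw [Fin.prod_univ_castSucc]
  congr 1
  · apply prod_congr rfl
    intro i _
    congr 1
    rw [finRotate_succ_apply]
    exact Fin.coeSucc_eq_succ
  · rw [finRotate_last]

/-- Total weight of all cyclic words. -/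
theorem cyc_sum_le {S A : Type*} [Fintype A] [Fintype S] (e : A → S) {h : S → A → ℝ}
    (hh : ∀ b c, 0 ≤ h b c) {v : S → ℝ} (hv1 : ∀ b, 1 ≤ v b) {R : ℝ} (hR : 0 ≤ R)
    (hv : ∀ b, stepA (fun _ x => e x) h v b ≤ R * v b) {K : ℕ} (hK : 0 < K) :
    ∑ l : Fin K → A, ∏ p, h (e (l p)) (l (finRotate K p)) ≤ R ^ K * ∑ q, v q := by
  obtain ⟨n, rfl⟩ : ∃ n, K = n + 1 := ⟨K - 1, by omega⟩
  have h1 : ∀ l : Fin (n + 1) → A, ∏ p, h (e (l p)) (l (finRotate (n + 1) p))
      = wtA (fun _ x => e x) h (n + 1) (e (l (Fin.last n))) l := by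
    intro l
    rw [prod_rotate n (fun p p' => h (e (l p)) (l p')), wtA_eq_prod, mul_comm]
  calc ∑ l : Fin (n + 1) → A, ∏ p, h (e (l p)) (l (finRotate (n + 1) p))
      = ∑ l : Fin (n + 1) → A, wtA (fun _ x => e x) h (n + 1) (e (l (Fin.last n))) l :=
        sum_congr rfl (fun l _ => h1 l)
    _ ≤ ∑ l : Fin (n + 1) → A, ∑ q, wtA (fun _ x => e x) h (n + 1) q l := by
        apply sum_le_sum
        intro l _
        exact single_le_sum (f := fun q => wtA (fun _ x => e x) h (n + 1) q l)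
          (fun q _ => wtA_nonneg _ hh (n + 1) q l) (mem_univ (e (l (Fin.last n))))
    _ = ∑ q, ∑ l : Fin (n + 1) → A, wtA (fun _ x => e x) h (n + 1) q l := sum_comm
    _ ≤ ∑ q, R ^ (n + 1) * v q := by
        apply sum_le_sum
        intro q _
        exact sum_wtA_le _ hh hv1 hR hv (n + 1) q
    _ = R ^ (n + 1) * ∑ q, v q := by rw [mul_sum]

end Vale.Agent.P333.R2.H417
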