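import Mathlib
import Vale.Agent.P333.R2.H417.Cyc

/-!
P333: weights of the words of the 0-chain and of the 1-chain, as cyclic products.
-/

namespace Vale.Agent.P333.R2.H417

open Vale.Agent.P333 Finset

/-- State of the automata: the last block and the block before it. -/
abbrev St := Bool × Bool

/-- The state after a cell. -/
def e0 (c : Ref.Cell) : St := (c.2.2 2, c.2.2 1)

/-- Number of neighbours different from the block `b`, if `b` is on. -/
def cut (b p n : Bool) : ℕ := if b then (!p).toNat + (!n).toNat else 0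

/-- Rises read with a cell. -/
def cRis (q : St) (c : Ref.Cell) : ℕ := rise q.1 c.2.1 + Ref.cellR c

/-- Contact on and marked. -/
def cOn (c : Ref.Cell) : ℕ := (c.2.1 && c.1).toNat

/-- Contact off and not marked. -/
def cOff (c : Ref.Cell) : ℕ := (!c.2.1 && !c.1).toNat

/-- Cuts at the blocks that are on (last block of the previous cell, first two of this cell). -/
def cCut (q : St) (c : Ref.Cell) : ℕ :=
  cut q.1 q.2 c.2.1 + cut (c.2.2 0) c.2.1 (c.2.2 1) + cut (c.2.2 1) (c.2.2 0) (c.2.2 2)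

/-- The contact is in the majority state and none of the three blocks has two cuts. -/
def cOk (q : St) (c : Ref.Cell) : Prop :=
  c.2.1 = Ref.maj q.1 (c.2.2 0) c.1 ∧ cut q.1 q.2 c.2.1 ≤ 1 ∧ cut (c.2.2 0) c.2.1 (c.2.2 1) ≤ 1 ∧
    cut (c.2.2 1) (c.2.2 0) (c.2.2 2) ≤ 1

instance (q : St) (c : Ref.Cell) : Decidable (cOk q c) := by
  unfold cOk
  infer_instance

/-- The multipliers. -/
structure Par where
  lam : ℝ
  a : ℝ
  b : ℝ
  z : ℝ
  y0 : ℝ
  y1 : ℝ
  sg : ℝ
  t : ℝ

/-- Weight of a cell. -/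
noncomputable def g0 (P : Par) (q : St) (c : Ref.Cell) : ℝ :=
  if cOk q c then P.lam ^ cRis q c * P.a ^ cOn c * P.b ^ cOff c * P.sg ^ cCut q c
    * P.z ^ c.1.toNat * P.y0 ^ bones c.2.2 else 0

theorem cut_eq {b p n : Bool} (hb : b = true) : cut b p n = Ref.dif p b + Ref.dif b n := by
  subst hb
  cases p <;> cases n <;> rfl

theorem cut_off {b p n : Bool} (hb : b = false) : cut b p n = 0 := by
  subst hb
  rfl

variable {K : ℕ}

theorem cOk_of (l : Fin K → Ref.Cell) (hX : Ref.okX l) (h0 : Ref.ok0 l) (p : Fin K) :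
    cOk (e0 (l p)) (l (finRotate K p)) := by
  refine ⟨hX p, ?_, ?_, ?_⟩
  · show cut ((l p).2.2 2) ((l p).2.2 1) (l (finRotate K p)).2.1 ≤ 1
    rcases Bool.eq_false_or_eq_true ((l p).2.2 2) with h | h
    · rw [cut_eq h]
      have := h0 (p, 2) h
      simpa [Ref.cut0] using this
    · rw [cut_off h]; exact Nat.zero_le _
  · rcases Bool.eq_false_or_eq_true ((l (finRotate K p)).2.2 0) with h | h
    · rw [cut_eq h]
      have := h0 (finRotate K p, 0) h
      simpa [Ref.cut0] using this
    · rw [cut_off h]; exact Nat.zero_le _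
  · rcases Bool.eq_false_or_eq_true ((l (finRotate K p)).2.2 1) with h | h
    · rw [cut_eq h]
      have := h0 (finRotate K p, 1) h
      simpa [Ref.cut0] using this
    · rw [cut_off h]; exact Nat.zero_le _

theorem sum_cRis (l : Fin K → Ref.Cell) :
    ∑ p, cRis (e0 (l p)) (l (finRotate K p)) = Ref.R0 l := by
  unfold cRis Ref.R0
  rw [sum_add_distrib, sum_add_distrib, Equiv.sum_comp (finRotate K) (fun p => Ref.cellR (l p)),
    add_comm]
  rfl

theorem sum_cOn (l : Fin K → Ref.Cell) : ∑ p, cOn (l (finRotate K p)) = Ref.nX l :=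
  Equiv.sum_comp (finRotate K) (fun p => cOn (l p))

theorem sum_cOff (l : Fin K → Ref.Cell) : ∑ p, cOff (l (finRotate K p)) = Ref.nY l :=
  Equiv.sum_comp (finRotate K) (fun p => cOff (l p))

theorem sum_w (l : Fin K → Ref.Cell) : ∑ p, (l (finRotate K p)).1.toNat = Ref.wOnes l :=
  Equiv.sum_comp (finRotate K) (fun p => (l p).1.toNat)

theorem sum_b (l : Fin K → Ref.Cell) : ∑ p, bones (l (finRotate K p)).2.2 = Ref.bOnes l :=
  Equiv.sum_comp (finRotate K) (fun p => bones (l p).2.2)

theorem card_setA (l : Fin K → Ref.Cell) (h0 : Ref.ok0 l) :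
    ∑ p, cCut (e0 (l p)) (l (finRotate K p)) = (Ref.setA l).card := by
  have h1 : ∀ b : Fin K × Fin 3, (if (l b.1).2.2 b.2 = true ∧ Ref.cut0 l b = 1 then 1 else 0)
      = if (l b.1).2.2 b.2 = true then Ref.cut0 l b else 0 := by
    intro b
    by_cases hb : (l b.1).2.2 b.2 = true
    · have h2 := h0 b hb
      rw [if_pos hb]
      rcases Nat.le_one_iff_eq_zero_or_eq_one.mp h2 with h3 | h3
      · rw [h3]; simp
      · rw [h3]; simp [hb]
    · rw [if_neg hb, if_neg (fun h => hb h.1)]
  have h2 : (Ref.setA l).card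
      = ∑ p, (cut ((l p).2.2 0) (l p).2.1 ((l p).2.2 1)
        + cut ((l p).2.2 1) ((l p).2.2 0) ((l p).2.2 2)
        + cut ((l p).2.2 2) ((l p).2.2 1) (l (finRotate K p)).2.1) := by
    unfold Ref.setA
    rw [card_filter, sum_congr rfl (fun b _ => h1 b), Fintype.sum_prod_type]
    apply sum_congr rfl
    intro p _
    rw [Fin.sum_univ_three]
    have e : ∀ j : Fin 3, ∀ x y : Bool, Ref.cut0 l (p, j) = Ref.dif x ((l p).2.2 j)
        + Ref.dif ((l p).2.2 j) y → (if (l p).2.2 j = true then Ref.cut0 l (p, j) else 0)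
        = cut ((l p).2.2 j) x y := by
      intro j x y h
      rcases Bool.eq_false_or_eq_true ((l p).2.2 j) with hj | hj
      · rw [if_pos hj, cut_eq hj, h]
      · rw [if_neg (by rw [hj]; decide), cut_off hj]
    show (if (l p).2.2 0 = true then Ref.cut0 l (p, 0) else 0)
      + (if (l p).2.2 1 = true then Ref.cut0 l (p, 1) else 0)
      + (if (l p).2.2 2 = true then Ref.cut0 l (p, 2) else 0) = _
    rw [e 0 (l p).2.1 ((l p).2.2 1) (by simp [Ref.cut0]),
      e 1 ((l p).2.2 0) ((l p).2.2 2) (by simp [Ref.cut0]),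
      e 2 ((l p).2.2 1) (l (finRotate K p)).2.1 (by simp [Ref.cut0])]
  rw [h2]
  unfold cCut
  rw [sum_add_distrib, sum_add_distrib, sum_add_distrib, sum_add_distrib,
    Equiv.sum_comp (finRotate K) (fun p => cut ((l p).2.2 0) (l p).2.1 ((l p).2.2 1)),
    Equiv.sum_comp (finRotate K) (fun p => cut ((l p).2.2 1) ((l p).2.2 0) ((l p).2.2 2))]
  simp only [e0]
  ring

/-- The weight of a locally optimal word of the 0-chain. -/
theorem prod_g0 (P : Par) (l : Fin K → Ref.Cell) (hX : Ref.okX l) (h0 : Ref.ok0 l) :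
    ∏ p, g0 P (e0 (l p)) (l (finRotate K p))
      = P.lam ^ Ref.R0 l * P.a ^ Ref.nX l * P.b ^ Ref.nY l * P.sg ^ (Ref.setA l).card
        * P.z ^ Ref.wOnes l * P.y0 ^ Ref.bOnes l := by
  have h : ∀ p, g0 P (e0 (l p)) (l (finRotate K p))
      = P.lam ^ cRis (e0 (l p)) (l (finRotate K p)) * P.a ^ cOn (l (finRotate K p))
        * P.b ^ cOff (l (finRotate K p)) * P.sg ^ cCut (e0 (l p)) (l (finRotate K p))
        * P.z ^ (l (finRotate K p)).1.toNat * P.y0 ^ bones (l (finRotate K p)).2.2 := by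
    intro p
    unfold g0
    rw [if_pos (cOk_of l hX h0 p)]
  rw [prod_congr rfl (fun p _ => h p)]
  simp only [prod_mul_distrib, prod_pow_eq_pow_sum]
  rw [sum_cRis, sum_cOn, sum_cOff, card_setA l h0, sum_w, sum_b]

/-- Uncut block which is on (1-chain). -/
def unc (q : St) (n : Bool) : ℕ := if q.1 = true ∧ cut q.1 q.2 n = 0 then 1 else 0

/-- Weight of a letter of the 1-chain, a letter is a pair (block, block before it). -/
noncomputable def g1 (P : Par) (q : St) (c : St) : ℝ :=
  if c.2 = q.1 ∧ cut q.1 q.2 c.1 ≤ 1 then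
    P.lam ^ rise q.1 c.1 * (1 + P.t) ^ unc q c.1 * P.y1 ^ c.1.toNat else 0

/-- The word of pairs. -/
def pairs {n : ℕ} (f : Fin n → Bool) : Fin n → St := fun i => (f i, f ((finRotate n).symm i))

theorem pairs_injective (n : ℕ) : Function.Injective (pairs (n := n)) := by
  intro f g h
  funext i
  exact congrArg Prod.fst (congrFun h i)

theorem pairs_rot {n : ℕ} (f : Fin n → Bool) (i : Fin n) :
    pairs f (finRotate n i) = (f (finRotate n i), f i) := by
  unfold pairs
  rw [Equiv.symm_apply_apply]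

theorem unc_eq {n : ℕ} (f : Fin n → Bool) (h1 : Ref.ok1 f) :
    ∑ i, unc (pairs f i) (f (finRotate n i)) = bones f - (Ref.setB f).card := by
  have h2 : ∑ i, unc (pairs f i) (f (finRotate n i)) + (Ref.setB f).card = bones f := by
    unfold Ref.setB bones
    rw [card_filter, ← sum_add_distrib]
    apply sum_congr rfl
    intro i _
    rcases Bool.eq_false_or_eq_true (f i) with h | h
    · have h3 := h1 i h
      have h4 : cut (f i) (f ((finRotate n).symm i)) (f (finRotate n i)) = Ref.cut1 f i := by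
        rw [cut_eq h]; rfl
      show (if f i = true ∧ cut (f i) (f ((finRotate n).symm i)) (f (finRotate n i)) = 0 then 1
        else 0) + (if f i = true ∧ Ref.cut1 f i = 1 then 1 else 0) = _
      rw [h4, h]
      rcases Nat.le_one_iff_eq_zero_or_eq_one.mp h3 with h5 | h5 <;> rw [h5] <;> simp
    · show (if f i = true ∧ cut (f i) (f ((finRotate n).symm i)) (f (finRotate n i)) = 0 then 1
        else 0) + (if f i = true ∧ Ref.cut1 f i = 1 then 1 else 0) = _
      rw [h]
      simp
  omega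

/-- The weight of a locally optimal word of the 1-chain. -/
theorem prod_g1 (P : Par) {n : ℕ} (f : Fin n → Bool) (h1 : Ref.ok1 f) :
    ∏ i, g1 P (pairs f i) (pairs f (finRotate n i))
      = P.lam ^ Ref.R1 f * (1 + P.t) ^ (bones f - (Ref.setB f).card) * P.y1 ^ bones f := by
  have h : ∀ i, g1 P (pairs f i) (pairs f (finRotate n i))
      = P.lam ^ rise (f i) (f (finRotate n i)) * (1 + P.t) ^ unc (pairs f i) (f (finRotate n i))
        * P.y1 ^ (f (finRotate n i)).toNat := by
    intro i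
    unfold g1
    rw [pairs_rot, if_pos]
    · rfl
    · refine ⟨rfl, ?_⟩
      show cut (f i) (f ((finRotate n).symm i)) (f (finRotate n i)) ≤ 1
      rcases Bool.eq_false_or_eq_true (f i) with h | h
      · rw [cut_eq h]; exact h1 i h
      · rw [cut_off h]; exact Nat.zero_le _
  rw [prod_congr rfl (fun p _ => h p)]
  simp only [prod_mul_distrib, prod_pow_eq_pow_sum]
  rw [unc_eq f h1]
  congr 2
  exact Equiv.sum_comp (finRotate n) (fun i => (f i).toNat)

theorem g1_nonneg (P : Par) (hl : 0 ≤ P.lam) (ht : 0 ≤ P.t) (hy : 0 ≤ P.y1) (q c : St) :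
    0 ≤ g1 P q c := by
  unfold g1
  split_ifs
  · positivity
  · exact le_rfl

theorem g0_nonneg (P : Par) (hl : 0 ≤ P.lam) (ha : 0 ≤ P.a) (hb : 0 ≤ P.b) (hs : 0 ≤ P.sg)
    (hz : 0 ≤ P.z) (hy : 0 ≤ P.y0) (q : St) (c : Ref.Cell) : 0 ≤ g0 P q c := by
  unfold g0
  split_ifs
  · positivity
  · exact le_rfl

/-- The words of the 1-chain injected in the words of pairs. -/
theorem sum_pairs_le {n : ℕ} (G : (Fin n → St) → ℝ) (hG : ∀ F, 0 ≤ G F) :
    ∑ f : Fin n → Bool, G (pairs f) ≤ ∑ F : Fin n → St, G F := by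
  calc ∑ f : Fin n → Bool, G (pairs f)
      = ∑ F ∈ (univ : Finset (Fin n → Bool)).map ⟨pairs, pairs_injective n⟩, G F := by
        rw [sum_map]; rfl
    _ ≤ ∑ F : Fin n → St, G F := sum_le_univ_sum_of_nonneg hG

end Vale.Agent.P333.R2.H417
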