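import Mathlib
import Vale.Agent.P333.R2.H417.Wt

/-!
P333: Chernoff certificates for the refined bad event.
-/

namespace Vale.Agent.P333.R2.H417

open Vale.Agent.P333 Finset

/-- Certificate: multipliers, transfer operators with sub-eigenvectors. -/
structure Cert (p q : ℕ) where
  P : Par
  R0 : ℝ
  R1 : ℝ
  v0 : St → ℝ
  v1 : St → ℝ
  lam_pos : 0 < P.lam
  a_ge : 1 ≤ P.a
  b_ge : 1 ≤ P.b
  hab : 2 ≤ P.a * P.b
  hl : 1 ≤ (P.a * P.b) ^ p * P.lam ^ q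
  z_pos : 0 < P.z
  y0_pos : 0 < P.y0
  y1_pos : 0 < P.y1
  sg_pos : 0 < P.sg
  t_pos : 0 < P.t
  R0_pos : 0 < R0
  R1_pos : 0 < R1
  v0_ge : ∀ q, 1 ≤ v0 q
  v1_ge : ∀ q, 1 ≤ v1 q
  step0 : ∀ q, stepA (fun _ x => e0 x) (g0 P) v0 q ≤ R0 * v0 q
  step1 : ∀ q, stepA (fun _ x => x) (g1 P) v1 q ≤ R1 * v1 q

/-- `C(m, a) t^a ≤ (1 + t)^m`. -/
theorem choose_mul_pow_le (m a : ℕ) {t : ℝ} (ht : 0 < t) :
    (m.choose a : ℝ) * t ^ a ≤ (1 + t) ^ m := by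
  rcases le_or_gt a m with h | h
  · rw [add_comm, add_pow]
    have h1 : t ^ a * 1 ^ (m - a) * (m.choose a : ℝ)
        ≤ ∑ k ∈ range (m + 1), t ^ k * 1 ^ (m - k) * (m.choose k : ℝ) :=
      single_le_sum (f := fun k => t ^ k * 1 ^ (m - k) * (m.choose k : ℝ))
        (fun k _ => by positivity) (by rw [mem_range]; omega)
    rw [one_pow, mul_one, mul_comm] at h1
    exact h1
  · rw [Nat.choose_eq_zero_of_lt h]
    simp only [Nat.cast_zero, zero_mul]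
    positivity

namespace Cert

variable {p q : ℕ} (C : Cert p q)

theorem a_pos : 0 < C.P.a := lt_of_lt_of_le one_pos C.a_ge

theorem b_pos : 0 < C.P.b := lt_of_lt_of_le one_pos C.b_ge

/-- Every bad configuration has large weight. -/
theorem two_pow_le (hq : 0 < q) {s N X Y : ℕ} (hX : p * N + q * s ≤ q * X)
    (hY : p * N + q * s ≤ q * Y) :
    (2 : ℝ) ^ s ≤ C.P.lam ^ N * C.P.a ^ X * C.P.b ^ Y := by
  have ha := C.a_pos
  have hb := C.b_pos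
  have hlam := C.lam_pos
  have e1 : C.P.a ^ (p * N + q * s) ≤ C.P.a ^ (q * X) := pow_le_pow_right₀ C.a_ge hX
  have e2 : C.P.b ^ (p * N + q * s) ≤ C.P.b ^ (q * Y) := pow_le_pow_right₀ C.b_ge hY
  have h1 : ((2 : ℝ) ^ s) ^ q ≤ (C.P.lam ^ N * C.P.a ^ X * C.P.b ^ Y) ^ q := by
    calc ((2 : ℝ) ^ s) ^ q = 2 ^ (q * s) := by rw [← pow_mul, mul_comm]
      _ ≤ (C.P.a * C.P.b) ^ (q * s) := pow_le_pow_left₀ (by norm_num) C.hab _
      _ = 1 * (C.P.a * C.P.b) ^ (q * s) := by rw [one_mul]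
      _ ≤ ((C.P.a * C.P.b) ^ p * C.P.lam ^ q) ^ N * (C.P.a * C.P.b) ^ (q * s) := by
          apply mul_le_mul_of_nonneg_right (one_le_pow₀ C.hl) (by positivity)
      _ = C.P.lam ^ (q * N) * C.P.a ^ (p * N + q * s) * C.P.b ^ (p * N + q * s) := by
          rw [mul_pow, ← pow_mul, ← pow_mul, mul_pow, mul_pow, pow_add, pow_add]
          ring
      _ ≤ C.P.lam ^ (q * N) * C.P.a ^ (q * X) * C.P.b ^ (q * Y) := by gcongr
      _ = (C.P.lam ^ N * C.P.a ^ X * C.P.b ^ Y) ^ q := by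
          rw [mul_pow, mul_pow, ← pow_mul, ← pow_mul, ← pow_mul, mul_comm N, mul_comm X,
            mul_comm Y]
  exact le_of_pow_le_pow_left₀ hq.ne' (by positivity) h1

/-- Weight of a word of the 0-chain. -/
noncomputable def G0 {K : ℕ} (l : Fin K → Ref.Cell) : ℝ :=
  ∏ i, g0 C.P (e0 (l i)) (l (finRotate K i))

/-- Weight of a word of the 1-chain. -/
noncomputable def G1 {n : ℕ} (f : Fin n → Bool) : ℝ :=
  ∏ i, g1 C.P (pairs f i) (pairs f (finRotate n i))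

theorem G0_nonneg {K : ℕ} (l : Fin K → Ref.Cell) : 0 ≤ C.G0 l :=
  prod_nonneg (fun _ _ => g0_nonneg C.P C.lam_pos.le C.a_pos.le C.b_pos.le C.sg_pos.le
    C.z_pos.le C.y0_pos.le _ _)

theorem G1_nonneg {n : ℕ} (f : Fin n → Bool) : 0 ≤ C.G1 f :=
  prod_nonneg (fun _ _ => g1_nonneg C.P C.lam_pos.le C.t_pos.le C.y1_pos.le _ _)

theorem sum_G0 {K : ℕ} (hK : 0 < K) : ∑ l : Fin K → Ref.Cell, C.G0 l ≤ C.R0 ^ K * ∑ q, C.v0 q :=
  cyc_sum_le e0 (fun q c => g0_nonneg C.P C.lam_pos.le C.a_pos.le C.b_pos.le C.sg_pos.le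
    C.z_pos.le C.y0_pos.le q c) C.v0_ge C.R0_pos.le C.step0 hK

theorem sum_G1 {n : ℕ} (hn : 0 < n) : ∑ f : Fin n → Bool, C.G1 f ≤ C.R1 ^ n * ∑ q, C.v1 q := by
  have hg := g1_nonneg C.P C.lam_pos.le C.t_pos.le C.y1_pos.le
  refine (sum_pairs_le (fun F : Fin n → St => ∏ i, g1 C.P (F i) (F (finRotate n i)))
    (fun F => prod_nonneg (fun _ _ => hg _ _))).trans ?_
  exact cyc_sum_le (fun x : St => x) hg C.v1_ge C.R1_pos.le C.step1 hn

theorem wgt_le (hq : 0 < q) {s K w n a : ℕ} (l : Fin K → Ref.Cell) (f : Fin (K * 3) → Bool)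
    (hw : Ref.wOnes l = w) (hn : Ref.bOnes l = n) (hf : bones f = n)
    (ha : (Ref.setA l).card = a) (hbad : Ref.bad p q s l f) :
    Ref.wgt K w n a (Ref.setB f).card
      ≤ ((1 / 2) ^ s / (C.P.z ^ w * (C.P.y0 * C.P.y1) ^ n * (C.P.sg * C.P.t) ^ a)
        * ((1 / (K.choose w : ℝ)) * (1 / ((K * 3).choose n : ℝ)) * (1 / (n.choose a : ℝ))))
        * (C.G0 l * C.G1 f) := by
  obtain ⟨hX, h0, h1, hx, hy⟩ := hbad
  have hlam := C.lam_pos
  have hap := C.a_pos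
  have hbp := C.b_pos
  have hz := C.z_pos
  have hy0 := C.y0_pos
  have hy1 := C.y1_pos
  have hsg := C.sg_pos
  have ht := C.t_pos
  have h2 := C.two_pow_le hq hx hy
  have e0 : C.G0 l = C.P.lam ^ Ref.R0 l * C.P.a ^ Ref.nX l * C.P.b ^ Ref.nY l * C.P.sg ^ a
      * C.P.z ^ w * C.P.y0 ^ n := by
    unfold G0
    rw [prod_g0 C.P l hX h0, ha, hw, hn]
  have e1 : C.G1 f = C.P.lam ^ Ref.R1 f * (1 + C.P.t) ^ (n - (Ref.setB f).card)
      * C.P.y1 ^ n := by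
    unfold G1
    rw [prod_g1 C.P f h1, hf]
  have h3 := choose_mul_pow_le (n - (Ref.setB f).card) a ht
  set B := (Ref.setB f).card with hB
  set S : ℝ := (1 / (K.choose w : ℝ)) * (1 / ((K * 3).choose n : ℝ)) * (1 / (n.choose a : ℝ))
    with hS
  have hS0 : 0 ≤ S := by positivity
  have h4 : Ref.wgt K w n a B = S * ((n - B).choose a : ℝ) := by
    unfold Ref.wgt
    rw [hS]
    ring
  have h5 : ((n - B).choose a : ℝ) ≤ (1 / 2) ^ s * (C.P.lam ^ (Ref.R0 l + Ref.R1 f)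
      * C.P.a ^ Ref.nX l * C.P.b ^ Ref.nY l) * ((1 + C.P.t) ^ (n - B) / C.P.t ^ a) := by
    have h6 : ((n - B).choose a : ℝ) ≤ (1 + C.P.t) ^ (n - B) / C.P.t ^ a := by
      rw [le_div_iff₀ (by positivity)]
      exact h3
    have h7 : (1 : ℝ) ≤ (1 / 2) ^ s * (C.P.lam ^ (Ref.R0 l + Ref.R1 f)
      * C.P.a ^ Ref.nX l * C.P.b ^ Ref.nY l) := by
      calc (1 : ℝ) = (1 / 2) ^ s * 2 ^ s := by rw [← mul_pow]; norm_num
        _ ≤ _ := by gcongr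
    calc ((n - B).choose a : ℝ) ≤ (1 + C.P.t) ^ (n - B) / C.P.t ^ a := h6
      _ = 1 * ((1 + C.P.t) ^ (n - B) / C.P.t ^ a) := by rw [one_mul]
      _ ≤ _ := by
          apply mul_le_mul_of_nonneg_right h7
          positivity
  rw [h4]
  calc S * ((n - B).choose a : ℝ)
      ≤ S * ((1 / 2) ^ s * (C.P.lam ^ (Ref.R0 l + Ref.R1 f)
      * C.P.a ^ Ref.nX l * C.P.b ^ Ref.nY l) * ((1 + C.P.t) ^ (n - B) / C.P.t ^ a)) :=
        mul_le_mul_of_nonneg_left h5 hS0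
    _ = ((1 / 2) ^ s / (C.P.z ^ w * (C.P.y0 * C.P.y1) ^ n * (C.P.sg * C.P.t) ^ a) * S)
        * (C.G0 l * C.G1 f) := by
        rw [e0, e1, mul_pow, mul_pow, pow_add]
        field_simp

/-- Summed weights. -/
theorem sum_wgt_le (hq : 0 < q) {s K w n a : ℕ} (hK : 0 < K)
    (T : Finset ((Fin K → Ref.Cell) × (Fin (K * 3) → Bool)))
    (hT : ∀ t ∈ T, Ref.wOnes t.1 = w ∧ Ref.bOnes t.1 = n ∧ bones t.2 = n ∧
      (Ref.setA t.1).card = a ∧ Ref.bad p q s t.1 t.2) :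
    ∑ t ∈ T, Ref.wgt K w n a (Ref.setB t.2).card
      ≤ ((1 / 2) ^ s / (C.P.z ^ w * (C.P.y0 * C.P.y1) ^ n * (C.P.sg * C.P.t) ^ a)
        * ((1 / (K.choose w : ℝ)) * (1 / ((K * 3).choose n : ℝ)) * (1 / (n.choose a : ℝ))))
        * ((C.R0 ^ K * ∑ q, C.v0 q) * (C.R1 ^ (K * 3) * ∑ q, C.v1 q)) := by
  have hz := C.z_pos
  have hy0 := C.y0_pos
  have hy1 := C.y1_pos
  have hsg := C.sg_pos
  have ht := C.t_pos
  set Q : ℝ := (1 / 2) ^ s / (C.P.z ^ w * (C.P.y0 * C.P.y1) ^ n * (C.P.sg * C.P.t) ^ a)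
        * ((1 / (K.choose w : ℝ)) * (1 / ((K * 3).choose n : ℝ)) * (1 / (n.choose a : ℝ))) with hQ
  have hQ0 : 0 ≤ Q := by positivity
  calc ∑ t ∈ T, Ref.wgt K w n a (Ref.setB t.2).card
      ≤ ∑ t ∈ T, Q * (C.G0 t.1 * C.G1 t.2) := by
        apply sum_le_sum
        intro t htT
        obtain ⟨h1, h2, h3, h4, h5⟩ := hT t htT
        exact C.wgt_le hq t.1 t.2 h1 h2 h3 h4 h5
    _ ≤ ∑ t : (Fin K → Ref.Cell) × (Fin (K * 3) → Bool), Q * (C.G0 t.1 * C.G1 t.2) := by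
        apply sum_le_univ_sum_of_nonneg
        intro t
        exact mul_nonneg hQ0 (mul_nonneg (C.G0_nonneg _) (C.G1_nonneg _))
    _ = Q * ((∑ l, C.G0 l) * (∑ f, C.G1 f)) := by
        rw [← mul_sum, Fintype.sum_prod_type, sum_mul_sum]
    _ ≤ Q * ((C.R0 ^ K * ∑ q, C.v0 q) * (C.R1 ^ (K * 3) * ∑ q, C.v1 q)) := by
        apply mul_le_mul_of_nonneg_left _ hQ0
        apply mul_le_mul (C.sum_G0 hK) (C.sum_G1 (by omega))
        · exact sum_nonneg (fun f _ => C.G1_nonneg f)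
        · apply mul_nonneg (pow_nonneg C.R0_pos.le _)
          exact sum_nonneg (fun q _ => (zero_le_one.trans (C.v0_ge q)))

end Cert

/-- The entropy form of the condition on `R0`, `R1`. -/
theorem works3 {K w n a : ℕ} (hK : 0 < K) (hw : w ≤ K) (hn0 : 0 < n) (hn : n ≤ K * 3)
    (ha : a ≤ n) {R0 R1 z y c g : ℝ} (hR0 : 0 < R0) (hR1 : 0 < R1) (hz : 0 < z) (hy : 0 < y)
    (hc : 0 < c) (hg : 0 < g)
    (h3 : Real.log c ≤ Real.binEntropy ((a : ℝ) / n) + (a : ℝ) / n * Real.log g)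
    (h : Real.log R0 + 3 * Real.log R1
      ≤ (Real.binEntropy ((w : ℝ) / K) + (w : ℝ) / K * Real.log z)
        + 3 * (Real.binEntropy ((n : ℝ) / (K * 3 : ℕ))
          + (n : ℝ) / (K * 3 : ℕ) * Real.log (y * c))) :
    R0 ^ K * R1 ^ (K * 3) * ((((w : ℝ) ^ w * ((K - w : ℕ) : ℝ) ^ (K - w))
      * ((n : ℝ) ^ n * ((K * 3 - n : ℕ) : ℝ) ^ (K * 3 - n)))
      * ((a : ℝ) ^ a * ((n - a : ℕ) : ℝ) ^ (n - a)))
      ≤ z ^ w * y ^ n * g ^ a * (((K : ℝ) ^ K * ((K * 3 : ℕ) : ℝ) ^ (K * 3)) * (n : ℝ) ^ n) := by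
  have hK0 : (0 : ℝ) < K := by exact_mod_cast hK
  have hnr : (0 : ℝ) < n := by exact_mod_cast hn0
  have e1 := mul_binEntropy_div' K w hK hw
  have e2 := mul_binEntropy_div' (K * 3) n (by omega) hn
  have e3 := mul_binEntropy_div' n a hn0 ha
  have p1 := selfpow_pos w
  have p2 := selfpow_pos (K - w)
  have p3 := selfpow_pos n
  have p4 := selfpow_pos (K * 3 - n)
  have p5 := selfpow_pos K
  have p6 := selfpow_pos (K * 3)
  have p7 := selfpow_pos a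
  have p8 := selfpow_pos (n - a)
  have hN : ((K * 3 : ℕ) : ℝ) = K * 3 := by push_cast; ring
  have q1 : 0 < ((w : ℝ) ^ w * ((K - w : ℕ) : ℝ) ^ (K - w)) := mul_pos p1 p2
  have q2 : 0 < ((n : ℝ) ^ n * ((K * 3 - n : ℕ) : ℝ) ^ (K * 3 - n)) := mul_pos p3 p4
  have q3 : 0 < ((a : ℝ) ^ a * ((n - a : ℕ) : ℝ) ^ (n - a)) := mul_pos p7 p8
  have q4 : 0 < ((K : ℝ) ^ K * ((K * 3 : ℕ) : ℝ) ^ (K * 3)) := mul_pos p5 p6
  have q12 := mul_pos q1 q2
  have r0 : 0 < R0 ^ K := pow_pos hR0 _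
  have r1 : 0 < R1 ^ (K * 3) := pow_pos hR1 _
  have s1 : 0 < z ^ w := pow_pos hz _
  have s2 : 0 < y ^ n := pow_pos hy _
  have s3 : 0 < g ^ a := pow_pos hg _
  have h2 : (K : ℝ) * (Real.log R0 + 3 * Real.log R1)
      ≤ K * ((Real.binEntropy ((w : ℝ) / K) + (w : ℝ) / K * Real.log z)
        + 3 * (Real.binEntropy ((n : ℝ) / (K * 3 : ℕ))
          + (n : ℝ) / (K * 3 : ℕ) * Real.log (y * c))) :=
    mul_le_mul_of_nonneg_left h hK0.le
  have h4 : (K : ℝ) * ((Real.binEntropy ((w : ℝ) / K) + (w : ℝ) / K * Real.log z)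
        + 3 * (Real.binEntropy ((n : ℝ) / (K * 3 : ℕ))
          + (n : ℝ) / (K * 3 : ℕ) * Real.log (y * c)))
      = (K : ℝ) * Real.binEntropy ((w : ℝ) / K) + w * Real.log z
        + (((K * 3 : ℕ) : ℝ) * Real.binEntropy ((n : ℝ) / (K * 3 : ℕ))
          + n * (Real.log y + Real.log c)) := by
    rw [Real.log_mul hy.ne' hc.ne', hN]
    field_simp
  have h5 : (n : ℝ) * Real.log c ≤ (n : ℝ) * Real.binEntropy ((a : ℝ) / n) + a * Real.log g := by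
    calc (n : ℝ) * Real.log c
        ≤ n * (Real.binEntropy ((a : ℝ) / n) + (a : ℝ) / n * Real.log g) :=
          mul_le_mul_of_nonneg_left h3 hnr.le
      _ = _ := by field_simp
  rw [← Real.log_le_log_iff (mul_pos (mul_pos r0 r1) (mul_pos q12 q3))
      (mul_pos (mul_pos (mul_pos s1 s2) s3) (mul_pos q4 p3)),
    Real.log_mul (mul_pos r0 r1).ne' (mul_pos q12 q3).ne', Real.log_mul r0.ne' r1.ne',
    Real.log_mul q12.ne' q3.ne', Real.log_mul q1.ne' q2.ne', Real.log_mul p1.ne' p2.ne',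
    Real.log_mul p3.ne' p4.ne', Real.log_mul p7.ne' p8.ne',
    Real.log_mul (mul_pos (mul_pos s1 s2) s3).ne' (mul_pos q4 p3).ne',
    Real.log_mul (mul_pos s1 s2).ne' s3.ne', Real.log_mul s1.ne' s2.ne',
    Real.log_mul q4.ne' p3.ne', Real.log_mul p5.ne' p6.ne']
  simp only [Real.log_pow]
  rw [h4, e1, e2] at h2
  rw [e3] at h5
  have hN' : ((K * 3 : ℕ) : ℝ) * Real.log R1 = K * (3 * Real.log R1) := by rw [hN]; ring
  rw [hN']
  linarith only [h2, h5]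

end Vale.Agent.P333.R2.H417
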