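import Mathlib
import Vale.Agent.P333.R2.H417.Cert

/-!
P333: certificates valid on boxes of densities.
-/

namespace Vale.Agent.P333.R2.H417

open Vale.Agent.P333 Finset

/-- The bound on the summed weights at given densities `m = w / K`, `b = n / (3 K)`, `α = a / n`. -/
def Bnd (p q : ℕ) (V : ℝ) (m b α : ℝ) : Prop :=
  ∀ (s K w n a : ℕ), 0 < K → w ≤ K → 0 < n → n ≤ K * 3 → a ≤ n →
    (w : ℝ) / K = m → (n : ℝ) / (K * 3 : ℕ) = b → (a : ℝ) / n = α →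
    ∀ T : Finset ((Fin K → Ref.Cell) × (Fin (K * 3) → Bool)),
    (∀ t ∈ T, Ref.wOnes t.1 = w ∧ Ref.bOnes t.1 = n ∧ bones t.2 = n ∧
      (Ref.setA t.1).card = a ∧ Ref.bad p q s t.1 t.2) →
    ∑ t ∈ T, Ref.wgt K w n a (Ref.setB t.2).card ≤ (1 / 2) ^ s * V * ((K + 1 : ℕ) : ℝ) ^ 3

namespace Cert

variable {p q : ℕ} (C : Cert p q)

theorem bound (hq : 0 < q) {V : ℝ} (hV : 9 * ((∑ q, C.v0 q) * ∑ q, C.v1 q) ≤ V) {m b α c : ℝ}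
    (hc : 0 < c)
    (h3 : Real.log c ≤ Real.binEntropy α + α * Real.log (C.P.sg * C.P.t))
    (h : Real.log C.R0 + 3 * Real.log C.R1
      ≤ (Real.binEntropy m + m * Real.log C.P.z)
        + 3 * (Real.binEntropy b + b * Real.log (C.P.y0 * C.P.y1 * c))) :
    Bnd p q V m b α := by
  intro s K w n a hK hw hn0 hn ha hm hb hα T hT
  subst hm hb hα
  have hz := C.z_pos
  have hy0 := C.y0_pos
  have hy1 := C.y1_pos
  have hsg := C.sg_pos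
  have ht := C.t_pos
  have hR0 := C.R0_pos
  have hR1 := C.R1_pos
  have w3 := works3 hK hw hn0 hn ha hR0 hR1 hz (mul_pos hy0 hy1) hc (mul_pos hsg ht) h3 h
  refine (C.sum_wgt_le hq hK T hT).trans ?_
  have c1 := inv_choose_le K w hw
  have c2 := inv_choose_le (K * 3) n hn
  have c3 := inv_choose_le n a ha
  have p1 := mul_pos (selfpow_pos w) (selfpow_pos (K - w))
  have p2 := mul_pos (selfpow_pos n) (selfpow_pos (K * 3 - n))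
  have p3 := mul_pos (selfpow_pos a) (selfpow_pos (n - a))
  have p4 := selfpow_pos K
  have p5 := selfpow_pos (K * 3)
  have p6 := selfpow_pos n
  set E1 : ℝ := (w : ℝ) ^ w * ((K - w : ℕ) : ℝ) ^ (K - w) with hE1
  set E2 : ℝ := (n : ℝ) ^ n * ((K * 3 - n : ℕ) : ℝ) ^ (K * 3 - n) with hE2
  set E3 : ℝ := (a : ℝ) ^ a * ((n - a : ℕ) : ℝ) ^ (n - a) with hE3
  set Y : ℝ := C.P.z ^ w * (C.P.y0 * C.P.y1) ^ n * (C.P.sg * C.P.t) ^ a with hY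
  set X : ℝ := C.R0 ^ K * C.R1 ^ (K * 3) with hX
  set F1 : ℝ := (K : ℝ) ^ K with hF1
  set F2 : ℝ := ((K * 3 : ℕ) : ℝ) ^ (K * 3) with hF2
  set F3 : ℝ := (n : ℝ) ^ n with hF3
  have hY0 : 0 < Y := by positivity
  have hX0 : 0 < X := by positivity
  have h0 : ∀ q, 0 ≤ C.v0 q := fun q => zero_le_one.trans (C.v0_ge q)
  have h1 : ∀ q, 0 ≤ C.v1 q := fun q => zero_le_one.trans (C.v1_ge q)
  have hs0 : 0 ≤ ∑ q, C.v0 q := sum_nonneg (fun q _ => h0 q)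
  have hs1 : 0 ≤ ∑ q, C.v1 q := sum_nonneg (fun q _ => h1 q)
  set V0 : ℝ := ∑ q, C.v0 q with hV0
  set V1 : ℝ := ∑ q, C.v1 q with hV1
  have h4 : X / Y * (E1 / F1 * (E2 / F2) * (E3 / F3)) ≤ 1 := by
    rw [div_mul_div_comm, div_mul_div_comm, div_mul_div_comm,
      div_le_one (mul_pos hY0 (mul_pos (mul_pos p4 p5) p6))]
    calc X * (E1 * E2 * E3) = X * (E1 * E2 * E3) := rfl
      _ ≤ Y * (F1 * F2 * F3) := w3
  have hk : ((K * 3 : ℕ) : ℝ) + 1 ≤ 3 * ((K + 1 : ℕ) : ℝ) := by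
    push_cast
    linarith
  have hn' : (n : ℝ) + 1 ≤ 3 * ((K + 1 : ℕ) : ℝ) := by
    have : (n : ℝ) ≤ ((K * 3 : ℕ) : ℝ) := by exact_mod_cast hn
    linarith
  have hk' : (K : ℝ) + 1 = ((K + 1 : ℕ) : ℝ) := by push_cast; ring
  calc (1 / 2) ^ s / Y * (1 / (K.choose w : ℝ) * (1 / ((K * 3).choose n : ℝ))
          * (1 / (n.choose a : ℝ))) * (C.R0 ^ K * V0 * (C.R1 ^ (K * 3) * V1))
      ≤ (1 / 2) ^ s / Y * ((K + 1) * (E1 / F1) * ((((K * 3 : ℕ) : ℝ) + 1) * (E2 / F2))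
          * ((n + 1) * (E3 / F3))) * (C.R0 ^ K * V0 * (C.R1 ^ (K * 3) * V1)) := by
        gcongr
    _ = (1 / 2) ^ s * (V0 * V1) * ((K + 1) * (((K * 3 : ℕ) : ℝ) + 1) * (n + 1))
          * (X / Y * (E1 / F1 * (E2 / F2) * (E3 / F3))) := by
        rw [hX]
        ring
    _ ≤ (1 / 2) ^ s * (V0 * V1) * ((K + 1) * (((K * 3 : ℕ) : ℝ) + 1) * (n + 1)) * 1 := by
        gcongr
    _ ≤ (1 / 2) ^ s * (V0 * V1) * (((K + 1 : ℕ) : ℝ) * (3 * ((K + 1 : ℕ) : ℝ))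
          * (3 * ((K + 1 : ℕ) : ℝ))) * 1 := by
        rw [hk']
        gcongr
    _ = (1 / 2) ^ s * (9 * (V0 * V1)) * ((K + 1 : ℕ) : ℝ) ^ 3 := by ring
    _ ≤ (1 / 2) ^ s * V * ((K + 1 : ℕ) : ℝ) ^ 3 := by gcongr

/-- A certificate valid on a box. -/
theorem box (hq : 0 < q) {V : ℝ} (hV : 9 * ((∑ q, C.v0 q) * ∑ q, C.v1 q) ≤ V)
    {m0 m1 b0 b1 a0 a1 c1 c2 c3 : ℝ} (hm0 : 0 ≤ m0) (hm1 : m1 ≤ 1) (hb0 : 0 ≤ b0) (hb1 : b1 ≤ 1)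
    (ha0 : 0 ≤ a0) (ha1 : a1 ≤ 1) (hc1 : 0 < c1) (hc2 : 0 < c2) (hc3 : 0 < c3)
    (e1 : Real.log c1 ≤ Real.binEntropy m0 + m0 * Real.log C.P.z)
    (e2 : Real.log c1 ≤ Real.binEntropy m1 + m1 * Real.log C.P.z)
    (e3 : Real.log c2 ≤ Real.binEntropy b0 + b0 * Real.log (C.P.y0 * C.P.y1 * c3))
    (e4 : Real.log c2 ≤ Real.binEntropy b1 + b1 * Real.log (C.P.y0 * C.P.y1 * c3))
    (e5 : Real.log c3 ≤ Real.binEntropy a0 + a0 * Real.log (C.P.sg * C.P.t))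
    (e6 : Real.log c3 ≤ Real.binEntropy a1 + a1 * Real.log (C.P.sg * C.P.t))
    (e7 : C.R0 * C.R1 ^ 3 ≤ c1 * c2 ^ 3) {m b α : ℝ} (h1 : m0 ≤ m) (h2 : m ≤ m1) (h3 : b0 ≤ b)
    (h4 : b ≤ b1) (h5 : a0 ≤ α) (h6 : α ≤ a1) : Bnd p q V m b α := by
  have hR0 := C.R0_pos
  have hR1 := C.R1_pos
  have g1 := chk_between hm0 hm1 h1 h2 e1 e2
  have g2 := chk_between hb0 hb1 h3 h4 e3 e4
  have g3 := chk_between ha0 ha1 h5 h6 e5 e6
  refine C.bound hq hV hc3 g3 ?_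
  have g4 := Real.log_le_log (mul_pos hR0 (pow_pos hR1 3)) e7
  rw [Real.log_mul hR0.ne' (pow_pos hR1 3).ne', Real.log_mul hc1.ne' (pow_pos hc2 3).ne',
    Real.log_pow, Real.log_pow] at g4
  push_cast at g4
  linarith only [g1, g2, g4]

end Cert

end Vale.Agent.P333.R2.H417
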