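import Mathlib
import Vale.Agent.P333.R2.H417.Good

/-!
P333: certificates with natural numbers, and a checker evaluated by the kernel.
-/

namespace Vale.Agent.P333.R2.H417

open Vale.Agent.P333 Finset

/-- The common denominator of the entries of the certificates. -/
def DD : ℕ := 1000000000000

/-- The common denominator of the corners of the boxes. -/
def MM : ℕ := 1024

/-- Bound for the constant. -/
def VV : ℕ := 1000000000000000

/-- A certificate, all entries over the denominator `DD`. -/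
structure CN where
  lam : ℕ
  a : ℕ
  b : ℕ
  z : ℕ
  y0 : ℕ
  y1 : ℕ
  sg : ℕ
  t : ℕ
  R0 : ℕ
  R1 : ℕ
  c1 : ℕ
  c2 : ℕ
  c3 : ℕ
  v00 : ℕ
  v01 : ℕ
  v02 : ℕ
  v10 : ℕ
  v11 : ℕ
  v12 : ℕ

/-- `x^r DD^(m-r)`. -/
def pw (x m r : ℕ) : ℕ := Nat.mul (Nat.pow x r) (Nat.pow DD (m - r))

/-- Sum over the two Booleans. -/
def sB (f : Bool → ℕ) : ℕ := f true + f false

/-- Value at a state. -/
def vS (x y z : ℕ) (p pp : Bool) : ℕ := if p then (if pp then z else y) else x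

/-- Term of the step of the 0-chain. -/
def tN0 (c : CN) (p pp w b0 b1 b2 : Bool) : ℕ :=
  if cut p pp (Ref.maj p b0 w) ≤ 1 ∧ cut b0 (Ref.maj p b0 w) b1 ≤ 1 ∧ cut b1 b0 b2 ≤ 1 then
    pw c.lam 4 (rise p (Ref.maj p b0 w) + (rise (Ref.maj p b0 w) b0 + rise b0 b1 + rise b1 b2))
      * pw c.a 1 (Ref.maj p b0 w && w).toNat * pw c.b 1 (!Ref.maj p b0 w && !w).toNat
      * pw c.sg 3 (cut p pp (Ref.maj p b0 w) + cut b0 (Ref.maj p b0 w) b1 + cut b1 b0 b2)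
      * pw c.z 1 w.toNat * pw c.y0 3 (b0.toNat + b1.toNat + b2.toNat) * vS c.v00 c.v01 c.v02 b2 b1
  else 0

/-- The step of the 0-chain (over `DD ^ 14`). -/
def step0N (c : CN) (p pp : Bool) : ℕ :=
  sB fun w => sB fun b0 => sB fun b1 => sB fun b2 => tN0 c p pp w b0 b1 b2

/-- Term of the step of the 1-chain. -/
def tN1 (c : CN) (p pp n : Bool) : ℕ :=
  if cut p pp n ≤ 1 then
    pw c.lam 1 (rise p n) * pw (DD + c.t) 1 (unc (p, pp) n) * pw c.y1 1 n.toNat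
      * vS c.v10 c.v11 c.v12 n p
  else 0

/-- The step of the 1-chain (over `DD ^ 4`). -/
def step1N (c : CN) (p pp : Bool) : ℕ := sB fun n => tN1 c p pp n

/-- Check of a step inequality at all states. -/
def all4 (f : Bool → Bool → Bool) : Bool :=
  f true true && f true false && f false true && f false false

/-- Check of the entries of a certificate. -/
def CN.ok (p q : ℕ) (c : CN) : Bool :=
  Nat.ble 1 c.lam && Nat.ble DD c.a && Nat.ble DD c.b && Nat.ble (2 * DD * DD) (c.a * c.b)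
    && Nat.ble (Nat.pow DD (2 * p + q)) (Nat.pow (c.a * c.b) p * Nat.pow c.lam q)
    && Nat.ble 1 c.z && Nat.ble 1 c.y0 && Nat.ble 1 c.y1 && Nat.ble 1 c.sg && Nat.ble 1 c.t
    && Nat.ble 1 c.R0 && Nat.ble 1 c.R1 && Nat.ble 1 c.c1 && Nat.ble 1 c.c2 && Nat.ble 1 c.c3
    && Nat.ble DD c.v00 && Nat.ble DD c.v01 && Nat.ble DD c.v02
    && Nat.ble DD c.v10 && Nat.ble DD c.v11 && Nat.ble DD c.v12
    && Nat.ble (9 * ((c.v02 + c.v01 + c.v00 + c.v00) * (c.v12 + c.v11 + c.v10 + c.v10)))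
      (VV * (DD * DD))
    && all4 (fun p' pp => Nat.ble (step0N c p' pp)
      (c.R0 * vS c.v00 c.v01 c.v02 p' pp * Nat.pow DD 12))
    && all4 (fun p' pp => Nat.ble (step1N c p' pp)
      (c.R1 * vS c.v10 c.v11 c.v12 p' pp * Nat.pow DD 2))
    && Nat.ble (c.R0 * Nat.pow c.R1 3) (c.c1 * Nat.pow c.c2 3)

/-- Check of `log (cn / D) ≤ h(a / M) + (a / M) log (zn / zd)`. -/
def chkG (D M cn zn zd a : ℕ) : Bool :=
  Nat.ble (Nat.pow cn M * (Nat.pow a a * Nat.pow (M - a) (M - a)) * Nat.pow zd a)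
    (Nat.pow zn a * Nat.pow M M * Nat.pow D M)

/-- The same with the fixed denominators. -/
def chkN (cn zn zd a : ℕ) : Bool := chkG DD MM cn zn zd a

/-- Check of a certificate on a box. -/
def CN.okBox (c : CN) (m0 m1 b0 b1 a0 a1 : ℕ) : Bool :=
  Nat.ble m0 MM && Nat.ble m1 MM && Nat.ble b0 MM && Nat.ble b1 MM && Nat.ble a0 MM
    && Nat.ble a1 MM && chkN c.c1 c.z DD m0 && chkN c.c1 c.z DD m1
    && chkN c.c2 (c.y0 * c.y1 * c.c3) (DD * DD * DD) b0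
    && chkN c.c2 (c.y0 * c.y1 * c.c3) (DD * DD * DD) b1
    && chkN c.c3 (c.sg * c.t) (DD * DD) a0 && chkN c.c3 (c.sg * c.t) (DD * DD) a1

/-- Binary space partitions with certificates at the leaves. -/
inductive Tree
  | leaf (c : CN) : Tree
  | sm (m : ℕ) (l r : Tree) : Tree
  | sb (m : ℕ) (l r : Tree) : Tree
  | sa (m : ℕ) (l r : Tree) : Tree

/-- The checker. -/
def Tree.chk (p q : ℕ) : Tree → ℕ → ℕ → ℕ → ℕ → ℕ → ℕ → Bool
  | .leaf c, m0, m1, b0, b1, a0, a1 => c.ok p q && c.okBox m0 m1 b0 b1 a0 a1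
  | .sm m l r, m0, m1, b0, b1, a0, a1 =>
    Tree.chk p q l m0 m b0 b1 a0 a1 && Tree.chk p q r m m1 b0 b1 a0 a1
  | .sb m l r, m0, m1, b0, b1, a0, a1 =>
    Tree.chk p q l m0 m1 b0 m a0 a1 && Tree.chk p q r m0 m1 m b1 a0 a1
  | .sa m l r, m0, m1, b0, b1, a0, a1 =>
    Tree.chk p q l m0 m1 b0 b1 a0 m && Tree.chk p q r m0 m1 b0 b1 m a1

/-! ### Soundness -/

theorem DD_pos : (0 : ℝ) < (DD : ℝ) := by unfold DD; norm_num

theorem pw_eq (x m r : ℕ) (h : r ≤ m) : ((x : ℝ) / DD) ^ r = (pw x m r : ℝ) / (DD : ℝ) ^ m := by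
  have hD := DD_pos
  have e : (pw x m r : ℝ) = (x : ℝ) ^ r * (DD : ℝ) ^ (m - r) := by
    show ((Nat.mul (Nat.pow x r) (Nat.pow DD (m - r)) : ℕ) : ℝ) = _
    rw [Nat.mul_eq, Nat.pow_eq, Nat.pow_eq, Nat.cast_mul, Nat.cast_pow, Nat.cast_pow]
  rw [e, div_pow, div_eq_div_iff (by positivity) (by positivity), mul_assoc, ← pow_add,
    Nat.sub_add_cancel h]

/-- The multipliers of a certificate. -/
noncomputable def CN.par (c : CN) : Par where
  lam := (c.lam : ℝ) / DD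
  a := (c.a : ℝ) / DD
  b := (c.b : ℝ) / DD
  z := (c.z : ℝ) / DD
  y0 := (c.y0 : ℝ) / DD
  y1 := (c.y1 : ℝ) / DD
  sg := (c.sg : ℝ) / DD
  t := (c.t : ℝ) / DD

theorem sum_fun3 (F : (Fin 3 → Bool) → ℝ) :
    ∑ g : Fin 3 → Bool, F g = ∑ b0 : Bool, ∑ b1 : Bool, ∑ b2 : Bool, F ![b0, b1, b2] := by
  rw [sum_fun_succ]
  apply sum_congr rfl; intro b0 _
  rw [sum_fun_succ]
  apply sum_congr rfl; intro b1 _
  rw [sum_fun_succ]
  apply sum_congr rfl; intro b2 _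
  rw [Fintype.sum_unique]
  rfl

theorem sB_cast (f : Bool → ℕ) : ((sB f : ℕ) : ℝ) = ∑ b : Bool, (f b : ℝ) := by
  rw [Fintype.sum_bool]
  unfold sB
  push_cast
  rfl

theorem rise_le_one (a b : Bool) : rise a b ≤ 1 := by
  cases a <;> cases b <;> decide

theorem toNat_le_one (a : Bool) : a.toNat ≤ 1 := by
  cases a <;> decide

/-- The real term of the step of the 0-chain. -/
theorem term0 (c : CN) (p pp w b0 b1 b2 : Bool) :
    g0 c.par (p, pp) (w, Ref.maj p b0 w, ![b0, b1, b2]) * ((vS c.v00 c.v01 c.v02 b2 b1 : ℕ) / DD : ℝ)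
      = (tN0 c p pp w b0 b1 b2 : ℝ) / (DD : ℝ) ^ 14 := by
  have hD := DD_pos
  unfold g0 tN0
  have h1 : cOk (p, pp) (w, Ref.maj p b0 w, ![b0, b1, b2])
      ↔ (cut p pp (Ref.maj p b0 w) ≤ 1 ∧ cut b0 (Ref.maj p b0 w) b1 ≤ 1 ∧ cut b1 b0 b2 ≤ 1) := by
    unfold cOk
    exact ⟨fun h => h.2, fun h => ⟨rfl, h⟩⟩
  by_cases h : cut p pp (Ref.maj p b0 w) ≤ 1 ∧ cut b0 (Ref.maj p b0 w) b1 ≤ 1 ∧ cut b1 b0 b2 ≤ 1
  · rw [if_pos (h1.mpr h), if_pos h]
    have e1 : cRis (p, pp) (w, Ref.maj p b0 w, ![b0, b1, b2])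
        = rise p (Ref.maj p b0 w) + (rise (Ref.maj p b0 w) b0 + rise b0 b1 + rise b1 b2) := rfl
    have e2 : cOn (w, Ref.maj p b0 w, ![b0, b1, b2]) = (Ref.maj p b0 w && w).toNat := rfl
    have e3 : cOff (w, Ref.maj p b0 w, ![b0, b1, b2]) = (!Ref.maj p b0 w && !w).toNat := rfl
    have e4 : cCut (p, pp) (w, Ref.maj p b0 w, ![b0, b1, b2])
        = cut p pp (Ref.maj p b0 w) + cut b0 (Ref.maj p b0 w) b1 + cut b1 b0 b2 := rfl
    have e5 : bones ![b0, b1, b2] = b0.toNat + b1.toNat + b2.toNat := by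
      unfold bones
      rw [Fin.sum_univ_three]
      rfl
    show (((c.lam : ℝ) / DD) ^ cRis (p, pp) (w, Ref.maj p b0 w, ![b0, b1, b2])
      * ((c.a : ℝ) / DD) ^ cOn (w, Ref.maj p b0 w, ![b0, b1, b2])
      * ((c.b : ℝ) / DD) ^ cOff (w, Ref.maj p b0 w, ![b0, b1, b2])
      * ((c.sg : ℝ) / DD) ^ cCut (p, pp) (w, Ref.maj p b0 w, ![b0, b1, b2])
      * ((c.z : ℝ) / DD) ^ w.toNat * ((c.y0 : ℝ) / DD) ^ bones ![b0, b1, b2])
      * ((vS c.v00 c.v01 c.v02 b2 b1 : ℕ) / DD : ℝ) = _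
    have r1 := rise_le_one p (Ref.maj p b0 w)
    have r2 := rise_le_one (Ref.maj p b0 w) b0
    have r3 := rise_le_one b0 b1
    have r4 := rise_le_one b1 b2
    have t0 := toNat_le_one b0
    have t1 := toNat_le_one b1
    have t2 := toNat_le_one b2
    rw [e1, e2, e3, e4, e5,
      pw_eq c.lam 4 _ (by omega), pw_eq c.a 1 _ (toNat_le_one _), pw_eq c.b 1 _ (toNat_le_one _),
      pw_eq c.sg 3 _ (by omega), pw_eq c.z 1 _ (toNat_le_one _), pw_eq c.y0 3 _ (by omega)]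
    push_cast
    field_simp
  · rw [if_neg (fun h' => h (h1.mp h')), if_neg h]
    simp

theorem sum_maj (F : Bool → ℝ) (m : Bool) (h : ∀ x, x ≠ m → F x = 0) : ∑ x : Bool, F x = F m :=
  sum_eq_single m (fun x _ hx => h x hx) (fun h' => absurd (mem_univ m) h')

theorem step0_eq (c : CN) (p pp : Bool) :
    stepA (fun _ x => e0 x) (g0 c.par) (fun s => ((vS c.v00 c.v01 c.v02 s.1 s.2 : ℕ) / DD : ℝ)) (p, pp)
      = (step0N c p pp : ℝ) / (DD : ℝ) ^ 14 := by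
  unfold stepA
  rw [Fintype.sum_prod_type]
  simp only [Fintype.sum_prod_type, sum_fun3]
  unfold step0N
  rw [sB_cast, sum_div]
  apply sum_congr rfl
  intro w _
  rw [sB_cast, sum_div, sum_comm]
  apply sum_congr rfl
  intro b0 _
  have h1 : ∀ x : Bool, x ≠ Ref.maj p b0 w → ∑ b1 : Bool, ∑ b2 : Bool,
      g0 c.par (p, pp) (w, x, ![b0, b1, b2])
        * ((vS c.v00 c.v01 c.v02 (e0 (w, x, ![b0, b1, b2])).1 (e0 (w, x, ![b0, b1, b2])).2 : ℕ)
          / DD : ℝ) = 0 := by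
    intro x hx
    apply sum_eq_zero
    intro b1 _
    apply sum_eq_zero
    intro b2 _
    have : ¬ cOk (p, pp) (w, x, ![b0, b1, b2]) := fun h => hx h.1
    unfold g0
    rw [if_neg this, zero_mul]
  rw [sum_maj _ (Ref.maj p b0 w) h1, sB_cast, sum_div]
  apply sum_congr rfl
  intro b1 _
  rw [sB_cast, sum_div]
  apply sum_congr rfl
  intro b2 _
  exact term0 c p pp w b0 b1 b2

theorem unc_le_one (q : St) (n : Bool) : unc q n ≤ 1 := by
  unfold unc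
  split_ifs <;> omega

theorem step1_eq (c : CN) (p pp : Bool) :
    stepA (fun _ x => x) (g1 c.par) (fun s : St => ((vS c.v10 c.v11 c.v12 s.1 s.2 : ℕ) / DD : ℝ))
      (p, pp) = (step1N c p pp : ℝ) / (DD : ℝ) ^ 4 := by
  have hD := DD_pos
  unfold stepA
  rw [Fintype.sum_prod_type]
  unfold step1N
  rw [sB_cast, sum_div]
  apply sum_congr rfl
  intro n _
  have h1 : ∀ x : Bool, x ≠ p → g1 c.par (p, pp) (n, x)
      * ((vS c.v10 c.v11 c.v12 (n, x).1 (n, x).2 : ℕ) / DD : ℝ) = 0 := by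
    intro x hx
    unfold g1
    rw [if_neg (fun h => hx h.1), zero_mul]
  rw [sum_maj _ p h1]
  unfold g1 tN1
  by_cases h : cut p pp n ≤ 1
  · rw [if_pos ⟨rfl, h⟩, if_pos h]
    show (((c.lam : ℝ) / DD) ^ rise p n * (1 + (c.t : ℝ) / DD) ^ unc (p, pp) n
      * ((c.y1 : ℝ) / DD) ^ n.toNat) * ((vS c.v10 c.v11 c.v12 n p : ℕ) / DD : ℝ) = _
    have e : 1 + (c.t : ℝ) / DD = ((DD + c.t : ℕ) : ℝ) / DD := by
      push_cast
      field_simp
    rw [e, pw_eq c.lam 1 _ (rise_le_one _ _), pw_eq (DD + c.t) 1 _ (unc_le_one _ _),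
      pw_eq c.y1 1 _ (toNat_le_one _)]
    push_cast
    field_simp
  · rw [if_neg (fun h' => h h'.2), if_neg h]
    simp

theorem all4_iff {f : Bool → Bool → Bool} (h : all4 f = true) (p pp : Bool) : f p pp = true := by
  unfold all4 at h
  simp only [Bool.and_eq_true] at h
  obtain ⟨⟨⟨h1, h2⟩, h3⟩, h4⟩ := h
  cases p <;> cases pp <;> assumption

theorem vS_ge {x y z m : ℕ} (hx : m ≤ x) (hy : m ≤ y) (hz : m ≤ z) (p pp : Bool) :
    m ≤ vS x y z p pp := by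
  cases p <;> cases pp <;> simp [vS, hx, hy, hz]

theorem chkG_sound {D M cn zn zd a : ℕ} (hD : 1 ≤ D) (hM : 1 ≤ M) (hcn : 1 ≤ cn) (hzn : 1 ≤ zn)
    (hzd : 1 ≤ zd) (ha : a ≤ M) (h : chkG D M cn zn zd a = true) :
    Real.log ((cn : ℝ) / D) ≤ Real.binEntropy ((a : ℝ) / M)
      + (a : ℝ) / M * Real.log ((zn : ℝ) / zd) := by
  have hD' : (0 : ℝ) < D := by exact_mod_cast hD
  have hc : (0 : ℝ) < (cn : ℝ) / D := by
    have : (0 : ℝ) < cn := by exact_mod_cast hcn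
    positivity
  have hzn' : (0 : ℝ) < zn := by exact_mod_cast hzn
  have hzd' : (0 : ℝ) < zd := by exact_mod_cast hzd
  refine chk hc (by positivity) (by omega) ha ?_
  unfold chkG at h
  have h1 := Nat.le_of_ble_eq_true h
  simp only [Nat.pow_eq] at h1
  have h2 : (cn : ℝ) ^ M * ((a : ℝ) ^ a * ((M - a : ℕ) : ℝ) ^ (M - a)) * (zd : ℝ) ^ a
      ≤ (zn : ℝ) ^ a * (M : ℝ) ^ M * (D : ℝ) ^ M := by exact_mod_cast h1
  rw [div_pow, div_pow, div_mul_eq_mul_div, div_mul_eq_mul_div,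
    div_le_div_iff₀ (by positivity) (by positivity)]
  exact h2

theorem chkN_sound {cn zn zd a : ℕ} (hcn : 1 ≤ cn) (hzn : 1 ≤ zn) (hzd : 1 ≤ zd) (ha : a ≤ MM)
    (h : chkN cn zn zd a = true) :
    Real.log ((cn : ℝ) / DD) ≤ Real.binEntropy ((a : ℝ) / (MM : ℕ))
      + (a : ℝ) / (MM : ℕ) * Real.log ((zn : ℝ) / zd) :=
  chkG_sound (by unfold DD; norm_num) (by unfold MM; norm_num) hcn hzn hzd ha h

end Vale.Agent.P333.R2.H417
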