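import Mathlib
import Vale.Agent.P333.R2.H417.Check

/-!
P333: soundness of the checker.
-/

namespace Vale.Agent.P333.R2.H417

open Vale.Agent.P333 Finset

theorem div_DD_ge {x : ℕ} (h : DD ≤ x) : (1 : ℝ) ≤ (x : ℝ) / DD := by
  rw [le_div_iff₀ DD_pos, one_mul]
  exact_mod_cast h

theorem div_DD_pos {x : ℕ} (h : 1 ≤ x) : (0 : ℝ) < (x : ℝ) / DD :=
  div_pos (by exact_mod_cast h) DD_pos

/-- The facts checked by `CN.ok`. -/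
theorem CN.ok_iff {p q : ℕ} {c : CN} (h : c.ok p q = true) :
    1 ≤ c.lam ∧ DD ≤ c.a ∧ DD ≤ c.b ∧ 2 * DD * DD ≤ c.a * c.b ∧
    DD ^ (2 * p + q) ≤ (c.a * c.b) ^ p * c.lam ^ q ∧
    (1 ≤ c.z ∧ 1 ≤ c.y0 ∧ 1 ≤ c.y1 ∧ 1 ≤ c.sg ∧ 1 ≤ c.t ∧ 1 ≤ c.R0 ∧ 1 ≤ c.R1) ∧
    (1 ≤ c.c1 ∧ 1 ≤ c.c2 ∧ 1 ≤ c.c3) ∧
    (DD ≤ c.v00 ∧ DD ≤ c.v01 ∧ DD ≤ c.v02 ∧ DD ≤ c.v10 ∧ DD ≤ c.v11 ∧ DD ≤ c.v12) ∧
    9 * ((c.v02 + c.v01 + c.v00 + c.v00) * (c.v12 + c.v11 + c.v10 + c.v10)) ≤ VV * (DD * DD) ∧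
    (∀ p' pp, step0N c p' pp ≤ c.R0 * vS c.v00 c.v01 c.v02 p' pp * DD ^ 12) ∧
    (∀ p' pp, step1N c p' pp ≤ c.R1 * vS c.v10 c.v11 c.v12 p' pp * DD ^ 2) ∧
    c.R0 * c.R1 ^ 3 ≤ c.c1 * c.c2 ^ 3 := by
  unfold CN.ok at h
  simp only [Bool.and_eq_true] at h
  obtain ⟨⟨⟨⟨⟨⟨⟨⟨⟨⟨⟨⟨⟨⟨⟨⟨⟨⟨⟨⟨⟨⟨⟨⟨h1, h2⟩, h3⟩, h4⟩, h5⟩, h6⟩, h7⟩, h8⟩, h9⟩, h10⟩, h11⟩, h12⟩,
    h13⟩, h14⟩, h15⟩, h16⟩, h17⟩, h18⟩, h19⟩, h20⟩, h21⟩, h22⟩, h23⟩, h24⟩, h25⟩ := h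
  simp only [Nat.pow_eq] at h5 h25
  refine ⟨Nat.le_of_ble_eq_true h1, Nat.le_of_ble_eq_true h2, Nat.le_of_ble_eq_true h3,
    Nat.le_of_ble_eq_true h4, Nat.le_of_ble_eq_true h5,
    ⟨Nat.le_of_ble_eq_true h6, Nat.le_of_ble_eq_true h7, Nat.le_of_ble_eq_true h8,
      Nat.le_of_ble_eq_true h9, Nat.le_of_ble_eq_true h10, Nat.le_of_ble_eq_true h11,
      Nat.le_of_ble_eq_true h12⟩,
    ⟨Nat.le_of_ble_eq_true h13, Nat.le_of_ble_eq_true h14, Nat.le_of_ble_eq_true h15⟩,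
    ⟨Nat.le_of_ble_eq_true h16, Nat.le_of_ble_eq_true h17, Nat.le_of_ble_eq_true h18,
      Nat.le_of_ble_eq_true h19, Nat.le_of_ble_eq_true h20, Nat.le_of_ble_eq_true h21⟩,
    Nat.le_of_ble_eq_true h22, ?_, ?_, Nat.le_of_ble_eq_true h25⟩
  · intro p' pp
    have := Nat.le_of_ble_eq_true (all4_iff h23 p' pp)
    simpa only [Nat.pow_eq] using this
  · intro p' pp
    have := Nat.le_of_ble_eq_true (all4_iff h24 p' pp)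
    simpa only [Nat.pow_eq] using this

/-- The certificate of a checked list of numbers. -/
noncomputable def CN.cert {p q : ℕ} (c : CN) (h : c.ok p q = true) : Cert p q where
  P := c.par
  R0 := (c.R0 : ℝ) / DD
  R1 := (c.R1 : ℝ) / DD
  v0 := fun s => ((vS c.v00 c.v01 c.v02 s.1 s.2 : ℕ) / DD : ℝ)
  v1 := fun s => ((vS c.v10 c.v11 c.v12 s.1 s.2 : ℕ) / DD : ℝ)
  lam_pos := div_DD_pos (CN.ok_iff h).1
  a_ge := div_DD_ge (CN.ok_iff h).2.1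
  b_ge := div_DD_ge (CN.ok_iff h).2.2.1
  hab := by
    have h4 := (CN.ok_iff h).2.2.2.1
    have hD := DD_pos
    show (2 : ℝ) ≤ (c.a : ℝ) / DD * ((c.b : ℝ) / DD)
    rw [div_mul_div_comm, le_div_iff₀ (by positivity)]
    have : ((2 * DD * DD : ℕ) : ℝ) ≤ ((c.a * c.b : ℕ) : ℝ) := by exact_mod_cast h4
    rw [Nat.cast_mul, Nat.cast_mul, Nat.cast_mul] at this
    calc (2 : ℝ) * (DD * DD) = (2 : ℕ) * DD * DD := by push_cast; ring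
      _ ≤ _ := this
  hl := by
    have h5 := (CN.ok_iff h).2.2.2.2.1
    have hD := DD_pos
    show (1 : ℝ) ≤ ((c.a : ℝ) / DD * ((c.b : ℝ) / DD)) ^ p * ((c.lam : ℝ) / DD) ^ q
    have h6 : (DD : ℝ) ^ (2 * p + q) ≤ ((c.a : ℝ) * c.b) ^ p * (c.lam : ℝ) ^ q := by
      have : ((DD ^ (2 * p + q) : ℕ) : ℝ) ≤ (((c.a * c.b) ^ p * c.lam ^ q : ℕ) : ℝ) := by
        exact_mod_cast h5
      rw [Nat.cast_pow, Nat.cast_mul, Nat.cast_pow, Nat.cast_pow, Nat.cast_mul] at this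
      exact this
    have h7 : (((c.a : ℝ) / DD * ((c.b : ℝ) / DD)) ^ p * ((c.lam : ℝ) / DD) ^ q)
        = ((c.a : ℝ) * c.b) ^ p * (c.lam : ℝ) ^ q / (DD : ℝ) ^ (2 * p + q) := by
      rw [div_mul_div_comm, div_pow, div_pow, div_mul_div_comm, pow_add, pow_mul, pow_two]
    rw [h7, le_div_iff₀ (by positivity), one_mul]
    exact h6
  z_pos := div_DD_pos (CN.ok_iff h).2.2.2.2.2.1.1
  y0_pos := div_DD_pos (CN.ok_iff h).2.2.2.2.2.1.2.1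
  y1_pos := div_DD_pos (CN.ok_iff h).2.2.2.2.2.1.2.2.1
  sg_pos := div_DD_pos (CN.ok_iff h).2.2.2.2.2.1.2.2.2.1
  t_pos := div_DD_pos (CN.ok_iff h).2.2.2.2.2.1.2.2.2.2.1
  R0_pos := div_DD_pos (CN.ok_iff h).2.2.2.2.2.1.2.2.2.2.2.1
  R1_pos := div_DD_pos (CN.ok_iff h).2.2.2.2.2.1.2.2.2.2.2.2
  v0_ge := fun s => by
    obtain ⟨h1, h2, h3, -⟩ := (CN.ok_iff h).2.2.2.2.2.2.2.1
    exact div_DD_ge (vS_ge h1 h2 h3 s.1 s.2)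
  v1_ge := fun s => by
    obtain ⟨-, -, -, h1, h2, h3⟩ := (CN.ok_iff h).2.2.2.2.2.2.2.1
    exact div_DD_ge (vS_ge h1 h2 h3 s.1 s.2)
  step0 := by
    intro s
    have h1 := (CN.ok_iff h).2.2.2.2.2.2.2.2.2.1 s.1 s.2
    have hD := DD_pos
    obtain ⟨p', pp⟩ := s
    rw [step0_eq]
    have h2 : (step0N c p' pp : ℝ) ≤ (c.R0 : ℝ) * (vS c.v00 c.v01 c.v02 p' pp : ℕ) * (DD : ℝ) ^ 12 := by
      have : ((step0N c p' pp : ℕ) : ℝ)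
          ≤ ((c.R0 * vS c.v00 c.v01 c.v02 p' pp * DD ^ 12 : ℕ) : ℝ) := by exact_mod_cast h1
      rw [Nat.cast_mul, Nat.cast_mul, Nat.cast_pow] at this
      exact this
    show (step0N c p' pp : ℝ) / (DD : ℝ) ^ 14
      ≤ (c.R0 : ℝ) / DD * ((vS c.v00 c.v01 c.v02 p' pp : ℕ) / DD)
    rw [div_mul_div_comm, div_le_div_iff₀ (by positivity) (by positivity)]
    calc (step0N c p' pp : ℝ) * (DD * DD)
        ≤ ((c.R0 : ℝ) * (vS c.v00 c.v01 c.v02 p' pp : ℕ) * (DD : ℝ) ^ 12) * (DD * DD) := by gcongr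
      _ = _ := by ring
  step1 := by
    intro s
    have h1 := (CN.ok_iff h).2.2.2.2.2.2.2.2.2.2.1 s.1 s.2
    have hD := DD_pos
    obtain ⟨p', pp⟩ := s
    rw [step1_eq]
    have h2 : (step1N c p' pp : ℝ) ≤ (c.R1 : ℝ) * (vS c.v10 c.v11 c.v12 p' pp : ℕ) * (DD : ℝ) ^ 2 := by
      have : ((step1N c p' pp : ℕ) : ℝ)
          ≤ ((c.R1 * vS c.v10 c.v11 c.v12 p' pp * DD ^ 2 : ℕ) : ℝ) := by exact_mod_cast h1
      rw [Nat.cast_mul, Nat.cast_mul, Nat.cast_pow] at this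
      exact this
    show (step1N c p' pp : ℝ) / (DD : ℝ) ^ 4
      ≤ (c.R1 : ℝ) / DD * ((vS c.v10 c.v11 c.v12 p' pp : ℕ) / DD)
    rw [div_mul_div_comm, div_le_div_iff₀ (by positivity) (by positivity)]
    calc (step1N c p' pp : ℝ) * (DD * DD)
        ≤ ((c.R1 : ℝ) * (vS c.v10 c.v11 c.v12 p' pp : ℕ) * (DD : ℝ) ^ 2) * (DD * DD) := by gcongr
      _ = _ := by ring

theorem sum_St (x y z : ℕ) : ∑ s : St, ((vS x y z s.1 s.2 : ℕ) / DD : ℝ)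
    = ((z + y + x + x : ℕ) : ℝ) / DD := by
  rw [Fintype.sum_prod_type]
  simp only [Fintype.sum_bool, vS]
  push_cast
  norm_num
  ring

/-- A checked certificate gives the bound on its box. -/
theorem CN.sound {p q : ℕ} (hq : 0 < q) {c : CN} {m0 m1 b0 b1 a0 a1 : ℕ} (h : c.ok p q = true)
    (hb : c.okBox m0 m1 b0 b1 a0 a1 = true) {m b α : ℝ}
    (h1 : (m0 : ℝ) / (MM : ℕ) ≤ m) (h2 : m ≤ (m1 : ℝ) / (MM : ℕ))
    (h3 : (b0 : ℝ) / (MM : ℕ) ≤ b) (h4 : b ≤ (b1 : ℝ) / (MM : ℕ))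
    (h5 : (a0 : ℝ) / (MM : ℕ) ≤ α) (h6 : α ≤ (a1 : ℝ) / (MM : ℕ)) :
    Bnd p q (VV : ℝ) m b α := by
  have hD := DD_pos
  have hM : (0 : ℝ) < (MM : ℕ) := by unfold MM; norm_num
  have hdn : ∀ x : ℕ, (0 : ℝ) ≤ (x : ℝ) / (MM : ℕ) := fun x => by positivity
  have hd1 : ∀ x : ℕ, x ≤ MM → (x : ℝ) / (MM : ℕ) ≤ 1 := fun x hx => by
    rw [div_le_one hM]; exact_mod_cast hx
  obtain ⟨-, -, -, -, -, ⟨k1, k2, k3, k4, k5, -, -⟩, ⟨k6, k7, k8⟩, -, k9, -, -, k10⟩ := CN.ok_iff h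
  unfold CN.okBox at hb
  simp only [Bool.and_eq_true] at hb
  obtain ⟨⟨⟨⟨⟨⟨⟨⟨⟨⟨⟨g1, g2⟩, g3⟩, g4⟩, g5⟩, g6⟩, g7⟩, g8⟩, g9⟩, g10⟩, g11⟩, g12⟩ := hb
  have g1 := Nat.le_of_ble_eq_true g1
  have g2 := Nat.le_of_ble_eq_true g2
  have g3 := Nat.le_of_ble_eq_true g3
  have g4 := Nat.le_of_ble_eq_true g4
  have g5 := Nat.le_of_ble_eq_true g5
  have g6 := Nat.le_of_ble_eq_true g6
  have hDD : 1 ≤ DD := by unfold DD; norm_num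
  have j2 : 1 ≤ c.y0 * c.y1 * c.c3 := Nat.one_le_iff_ne_zero.mpr (by positivity)
  have j3 : 1 ≤ c.sg * c.t := Nat.one_le_iff_ne_zero.mpr (by positivity)
  have j4 : 1 ≤ DD * DD := Nat.one_le_iff_ne_zero.mpr (by positivity)
  have j5 : 1 ≤ DD * DD * DD := Nat.one_le_iff_ne_zero.mpr (by positivity)
  have ey : (c.cert h).P.y0 * (c.cert h).P.y1 * ((c.c3 : ℝ) / DD)
      = ((c.y0 * c.y1 * c.c3 : ℕ) : ℝ) / ((DD * DD * DD : ℕ) : ℝ) := by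
    show (c.y0 : ℝ) / DD * ((c.y1 : ℝ) / DD) * ((c.c3 : ℝ) / DD) = _
    rw [div_mul_div_comm, div_mul_div_comm, Nat.cast_mul, Nat.cast_mul, Nat.cast_mul, Nat.cast_mul]
  have es : (c.cert h).P.sg * (c.cert h).P.t
      = ((c.sg * c.t : ℕ) : ℝ) / ((DD * DD : ℕ) : ℝ) := by
    show (c.sg : ℝ) / DD * ((c.t : ℝ) / DD) = _
    rw [div_mul_div_comm, Nat.cast_mul, Nat.cast_mul]
  refine (c.cert h).box hq (V := (VV : ℝ)) ?_ (hdn m0) (hd1 m1 g2) (hdn b0) (hd1 b1 g4) (hdn a0)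
    (hd1 a1 g6) (div_DD_pos k6) (div_DD_pos k7) (div_DD_pos k8)
    (chkN_sound k6 k1 hDD g1 g7) (chkN_sound k6 k1 hDD g2 g8) ?_ ?_ ?_ ?_ ?_ h1 h2 h3 h4 h5 h6
  · show 9 * ((∑ s : St, ((vS c.v00 c.v01 c.v02 s.1 s.2 : ℕ) / DD : ℝ))
      * ∑ s : St, ((vS c.v10 c.v11 c.v12 s.1 s.2 : ℕ) / DD : ℝ)) ≤ (VV : ℝ)
    rw [sum_St, sum_St, div_mul_div_comm, mul_div_assoc', div_le_iff₀ (by positivity)]
    have : ((9 * ((c.v02 + c.v01 + c.v00 + c.v00) * (c.v12 + c.v11 + c.v10 + c.v10)) : ℕ) : ℝ)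
        ≤ ((VV * (DD * DD) : ℕ) : ℝ) := by exact_mod_cast k9
    rw [Nat.cast_mul, Nat.cast_mul, Nat.cast_mul, Nat.cast_mul] at this
    exact_mod_cast this
  · rw [ey]; exact chkN_sound k7 j2 j5 g3 g9
  · rw [ey]; exact chkN_sound k7 j2 j5 g4 g10
  · rw [es]; exact chkN_sound k8 j3 j4 g5 g11
  · rw [es]; exact chkN_sound k8 j3 j4 g6 g12
  · show (c.R0 : ℝ) / DD * ((c.R1 : ℝ) / DD) ^ 3 ≤ (c.c1 : ℝ) / DD * ((c.c2 : ℝ) / DD) ^ 3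
    have : ((c.R0 * c.R1 ^ 3 : ℕ) : ℝ) ≤ ((c.c1 * c.c2 ^ 3 : ℕ) : ℝ) := by exact_mod_cast k10
    rw [Nat.cast_mul, Nat.cast_mul, Nat.cast_pow, Nat.cast_pow] at this
    rw [div_pow, div_pow, div_mul_div_comm, div_mul_div_comm]
    gcongr

/-- Soundness of the checker. -/
theorem Tree.sound {p q : ℕ} (hq : 0 < q) (T : Tree) : ∀ {m0 m1 b0 b1 a0 a1 : ℕ},
    T.chk p q m0 m1 b0 b1 a0 a1 = true → ∀ {m b α : ℝ},
    (m0 : ℝ) / (MM : ℕ) ≤ m → m ≤ (m1 : ℝ) / (MM : ℕ) →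
    (b0 : ℝ) / (MM : ℕ) ≤ b → b ≤ (b1 : ℝ) / (MM : ℕ) →
    (a0 : ℝ) / (MM : ℕ) ≤ α → α ≤ (a1 : ℝ) / (MM : ℕ) → Bnd p q (VV : ℝ) m b α := by
  induction T with
  | leaf c =>
    intro m0 m1 b0 b1 a0 a1 h m b α h1 h2 h3 h4 h5 h6
    rw [Tree.chk, Bool.and_eq_true] at h
    exact CN.sound hq h.1 h.2 h1 h2 h3 h4 h5 h6
  | sm k l r ihl ihr =>
    intro m0 m1 b0 b1 a0 a1 h m b α h1 h2 h3 h4 h5 h6
    rw [Tree.chk, Bool.and_eq_true] at h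
    rcases le_total m ((k : ℝ) / (MM : ℕ)) with h' | h'
    · exact ihl h.1 h1 h' h3 h4 h5 h6
    · exact ihr h.2 h' h2 h3 h4 h5 h6
  | sb k l r ihl ihr =>
    intro m0 m1 b0 b1 a0 a1 h m b α h1 h2 h3 h4 h5 h6
    rw [Tree.chk, Bool.and_eq_true] at h
    rcases le_total b ((k : ℝ) / (MM : ℕ)) with h' | h'
    · exact ihl h.1 h1 h2 h3 h' h5 h6
    · exact ihr h.2 h1 h2 h' h4 h5 h6
  | sa k l r ihl ihr =>
    intro m0 m1 b0 b1 a0 a1 h m b α h1 h2 h3 h4 h5 h6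
    rw [Tree.chk, Bool.and_eq_true] at h
    rcases le_total α ((k : ℝ) / (MM : ℕ)) with h' | h'
    · exact ihl h.1 h1 h2 h3 h4 h5 h'
    · exact ihr h.2 h1 h2 h3 h4 h' h6

/-- The bulk bound from a checked tree. -/
theorem bulk_of {p q : ℕ} (hq : 0 < q) (T : Tree) {b0 b1 : ℕ}
    (h : T.chk p q 512 1024 b0 b1 0 1024 = true) {r : ℝ} (hr : 0 < r)
    (hb0 : (b0 : ℝ) / 1024 ≤ r) (hb1 : 1 - r ≤ (b1 : ℝ) / 1024) : Ref.BulkBound p q r := by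
  refine ⟨(VV : ℝ), 1 / 2, 3, by unfold VV; norm_num, by norm_num, by norm_num, ?_⟩
  intro s K w n a hK hw hw2 hn ha hr1 hr2 S hS
  have hK0 : (0 : ℝ) < K := by exact_mod_cast hK
  have hK3 : (0 : ℝ) < (K * 3 : ℕ) := by
    have : 0 < K * 3 := by omega
    exact_mod_cast this
  have hn0 : 0 < n := by
    rcases Nat.eq_zero_or_pos n with h0 | h0
    · rw [h0, Nat.cast_zero, zero_div] at hr1
      linarith
    · exact h0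
  have hnr : (0 : ℝ) < n := by exact_mod_cast hn0
  have hM : ((MM : ℕ) : ℝ) = 1024 := by unfold MM; norm_num
  have key := Tree.sound hq T h (m := (w : ℝ) / K) (b := (n : ℝ) / (K * 3 : ℕ))
    (α := (a : ℝ) / n) ?_ ?_ ?_ ?_ ?_ ?_
  · have := key s K w n a hK hw hn0 hn ha rfl rfl rfl S hS
    refine this.trans (le_of_eq ?_)
    ring
  · rw [hM, le_div_iff₀ hK0]
    have : (K : ℝ) ≤ 2 * w := by exact_mod_cast hw2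
    push_cast
    linarith
  · rw [hM, div_le_iff₀ hK0]
    have : (w : ℝ) ≤ K := by exact_mod_cast hw
    push_cast
    linarith
  · rw [hM]; exact hb0.trans hr1
  · rw [hM]; exact hr2.trans hb1
  · rw [hM]
    have : (0 : ℝ) ≤ (a : ℝ) / n := by positivity
    push_cast
    linarith
  · rw [hM, div_le_iff₀ hnr]
    have : (a : ℝ) ≤ n := by exact_mod_cast ha
    push_cast
    linarith

end Vale.Agent.P333.R2.H417
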